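import Mathlib
import Vale.Agent.Lib.P100.MaxPrinciple
open Filter Topology Set InnerProductSpace Laplacian

namespace Vale.Agent.P100.Rad

variable {E : Type*} [NormedAddCommGroup E] [InnerProductSpace ℝ E] [FiniteDimensional ℝ E]

omit [FiniteDimensional ℝ E] in
/-- a radial function which is `C^2` off the origin is a `C^2` function of `‖x‖^2` -/
lemma exists_profile {u : E → ℝ} (hu : ∀ x, x ≠ 0 → ContDiffAt ℝ 2 u x)
    (hrad : ∀ x y, ‖x‖ = ‖y‖ → u x = u y) {e : E} (he : ‖e‖ = 1) :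
    ∃ g : ℝ → ℝ, (∀ y, u y = g (‖y‖ ^ 2)) ∧ (∀ s, 0 < s → ContDiffAt ℝ 2 g s) := by
  refine ⟨fun s => u (Real.sqrt s • e), ?_, ?_⟩
  · intro y
    apply hrad
    rw [norm_smul, he, mul_one, Real.sqrt_sq (norm_nonneg y), Real.norm_of_nonneg (norm_nonneg y)]
  · intro s hs
    have hne : Real.sqrt s • e ≠ 0 := by
      intro h
      have h1 : ‖Real.sqrt s • e‖ = 0 := by rw [h, norm_zero]
      rw [norm_smul, he, mul_one, Real.norm_of_nonneg (Real.sqrt_nonneg s)] at h1
      have := Real.sqrt_pos.2 hs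
      linarith
    have h1 : ContDiffAt ℝ 2 (fun s : ℝ => Real.sqrt s • e) s :=
      (Real.contDiffAt_sqrt hs.ne').smul contDiffAt_const
    exact (hu _ hne).comp s h1

/-- first order system satisfied by the profile -/
lemma profile_ode {g : ℝ → ℝ} (hg : ∀ s, 0 < s → ContDiffAt ℝ 2 g s) (N : ℝ) {r : ℝ}
    (hr : 0 < r) :
    HasDerivAt (fun t : ℝ => g (t ^ 2)) (r ^ (1 - N) * (2 * r ^ N * deriv g (r ^ 2))) r ∧
    HasDerivAt (fun t : ℝ => 2 * t ^ N * deriv g (t ^ 2))
      (r ^ (N - 1) * (4 * r ^ 2 * deriv (deriv g) (r ^ 2) + 2 * N * deriv g (r ^ 2))) r := by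
  have hr2 : 0 < r ^ 2 := by positivity
  have hgc := hg (r ^ 2) hr2
  have hsq : HasDerivAt (fun t : ℝ => t ^ 2) (2 * r) r := by
    simpa using hasDerivAt_pow 2 r
  have hd1 : HasDerivAt g (deriv g (r ^ 2)) (r ^ 2) :=
    (hgc.differentiableAt (by norm_num)).hasDerivAt
  have hgc1 : ContDiffAt ℝ 1 (deriv g) (r ^ 2) := by
    have h := hgc.fderiv_right (m := 1) (by norm_num)
    have h' : deriv g = fun y => fderiv ℝ g y 1 := by
      ext y; simp
    rw [h']
    exact h.clm_apply contDiffAt_const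
  have hd2 : HasDerivAt (deriv g) (deriv (deriv g) (r ^ 2)) (r ^ 2) :=
    (hgc1.differentiableAt (by norm_num)).hasDerivAt
  constructor
  · have h := HasDerivAt.comp (h₂ := g) (h := fun t : ℝ => t ^ 2) r hd1 hsq
    have e1 : r ^ (1 - N) * (2 * r ^ N * deriv g (r ^ 2)) = deriv g (r ^ 2) * (2 * r) := by
      have : r ^ (1 - N) * r ^ N = r := by
        rw [← Real.rpow_add hr]; simp
      calc r ^ (1 - N) * (2 * r ^ N * deriv g (r ^ 2))
          = (r ^ (1 - N) * r ^ N) * (2 * deriv g (r ^ 2)) := by ring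
        _ = _ := by rw [this]; ring
    rw [e1]
    exact h
  · have h := HasDerivAt.comp (h₂ := deriv g) (h := fun t : ℝ => t ^ 2) r hd2 hsq
    have hp : HasDerivAt (fun t : ℝ => t ^ N) (N * r ^ (N - 1)) r :=
      Real.hasDerivAt_rpow_const (Or.inl hr.ne')
    have h3 := (hp.const_mul 2).mul h
    have e2 : r ^ N = r ^ (N - 1) * r := by
      rw [← Real.rpow_add_one hr.ne']; simp
    have e1 : r ^ (N - 1) * (4 * r ^ 2 * deriv (deriv g) (r ^ 2) + 2 * N * deriv g (r ^ 2))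
        = 2 * (N * r ^ (N - 1)) * (deriv g ∘ fun t : ℝ => t ^ 2) r
          + 2 * r ^ N * (deriv (deriv g) (r ^ 2) * (2 * r)) := by
      rw [e2]; simp only [Function.comp]; ring
    rw [e1]
    exact h3

end Vale.Agent.P100.Rad
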