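import Mathlib
import Vale.Agent.Lib.P100.MaxPrinciple
import Vale.Agent.Lib.P100.Rad.Profile
open Filter Topology Set InnerProductSpace Laplacian

namespace Vale.Agent.P100.Rad

variable {E : Type*} [NormedAddCommGroup E] [InnerProductSpace ℝ E] [FiniteDimensional ℝ E]

/-- reduction of one radial equation to a first order system along a ray -/
theorem radial_reduction {p A : ℝ} {u v : E → ℝ}
    (hu : ∀ x, x ≠ 0 → ContDiffAt ℝ 2 u x)
    (hrad : ∀ x y, ‖x‖ = ‖y‖ → u x = u y) {e : E} (he : ‖e‖ = 1)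
    (heq : ∀ x, x ≠ 0 → -(Δ u x) = ‖x‖ ^ A * v x ^ p) :
    ∃ φ : ℝ → ℝ, ∀ r, 0 < r →
      HasDerivAt (fun t : ℝ => u (t • e)) (r ^ (1 - (Module.finrank ℝ E : ℝ)) * φ r) r ∧
      HasDerivAt φ (-(r ^ ((Module.finrank ℝ E : ℝ) - 1 + A) * v (r • e) ^ p)) r := by
  obtain ⟨g, hg1, hg2⟩ := exists_profile hu hrad he
  set N : ℝ := (Module.finrank ℝ E : ℝ) with hN
  refine ⟨fun t => 2 * t ^ N * deriv g (t ^ 2), fun r hr => ?_⟩
  obtain ⟨h1, h2⟩ := profile_ode hg2 N hr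
  have hfun : (fun t : ℝ => u (t • e)) = fun t : ℝ => g (t ^ 2) := by
    ext t
    rw [hg1, norm_smul, he, mul_one, Real.norm_eq_abs, sq_abs]
  refine ⟨by rw [hfun]; exact h1, ?_⟩
  have hx : r • e ≠ 0 := by
    intro h0
    have : ‖r • e‖ = 0 := by rw [h0, norm_zero]
    rw [norm_smul, he, mul_one, Real.norm_eq_abs, abs_of_pos hr] at this
    exact hr.ne' this
  have hnorm : ‖r • e‖ = r := by rw [norm_smul, he, mul_one, Real.norm_eq_abs, abs_of_pos hr]
  have hu' : u = fun y : E => g (‖y‖ ^ 2) := funext hg1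
  have hlap : Δ u (r • e) = 4 * r ^ 2 * deriv (deriv g) (r ^ 2) + 2 * N * deriv g (r ^ 2) := by
    have := laplacian_radial (E := E) (g := g) (x := r • e) (by rw [hnorm]; exact hg2 _ (by positivity))
    rw [hnorm] at this
    rw [← this, ← hu']
  have h3 := heq _ hx
  rw [hlap, hnorm] at h3
  convert h2 using 1
  have : 4 * r ^ 2 * deriv (deriv g) (r ^ 2) + 2 * N * deriv g (r ^ 2) = -(r ^ A * v (r • e) ^ p) := by
    linarith
  rw [this, Real.rpow_add hr]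
  ring

/-- if `u` is radial then so is `v` -/
theorem radial_of_radial {p A : ℝ} (hp : p ≠ 0) {u v : E → ℝ}
    (hu : ∀ x, x ≠ 0 → ContDiffAt ℝ 2 u x)
    (hrad : ∀ x y, ‖x‖ = ‖y‖ → u x = u y) {e : E} (he : ‖e‖ = 1)
    (posv : ∀ x, 0 < v x)
    (heq : ∀ x, x ≠ 0 → -(Δ u x) = ‖x‖ ^ A * v x ^ p) :
    ∀ x y, ‖x‖ = ‖y‖ → v x = v y := by
  obtain ⟨g, hg1, hg2⟩ := exists_profile hu hrad he
  have hu' : u = fun y : E => g (‖y‖ ^ 2) := funext hg1
  intro x y hxy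
  by_cases hx : x = 0
  · have hy : y = 0 := by
      rw [hx, norm_zero] at hxy
      exact norm_eq_zero.mp hxy.symm
    rw [hx, hy]
  have hy : y ≠ 0 := by
    intro h0
    rw [h0, norm_zero] at hxy
    exact hx (norm_eq_zero.mp hxy)
  have hxn : 0 < ‖x‖ := norm_pos_iff.mpr hx
  have hl : ∀ z : E, z ≠ 0 → Δ u z = 4 * ‖z‖ ^ 2 * deriv (deriv g) (‖z‖ ^ 2)
      + 2 * (Module.finrank ℝ E) * deriv g (‖z‖ ^ 2) := by
    intro z hz
    have := laplacian_radial (E := E) (g := g) (x := z)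
      (hg2 _ (by have := norm_pos_iff.mpr hz; positivity))
    rw [← this, ← hu']
  have h1 := heq x hx
  have h2 := heq y hy
  rw [hl x hx] at h1
  rw [hl y hy, ← hxy] at h2
  have h3 : ‖x‖ ^ A * v x ^ p = ‖x‖ ^ A * v y ^ p := by rw [← h1, ← h2]
  have h4 : v x ^ p = v y ^ p := mul_left_cancel₀ (Real.rpow_pos_of_pos hxn A).ne' h3
  exact Real.rpow_left_injOn hp (posv x).le (posv y).le h4

end Vale.Agent.P100.Rad
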