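import Mathlib
open Filter Topology Set

namespace Vale.Agent.P100.Rad

/-- the Pohozaev-type function of the radial system -/
noncomputable def En (N p q A B a₁ a₂ : ℝ) (U V φ ψ : ℝ → ℝ) (r : ℝ) : ℝ :=
  r ^ (2 - N) * (φ r * ψ r) + r ^ (N + A) * V r ^ (p + 1) / (p + 1)
    + r ^ (N + B) * U r ^ (q + 1) / (q + 1) + a₁ * (U r * ψ r) + a₂ * (V r * φ r)

lemma hasDerivAt_En {N p q A B a₁ a₂ : ℝ} (hp : 0 < p) (hq : 0 < q) (ha : a₁ + a₂ = N - 2)
    {U V φ ψ : ℝ → ℝ} {r : ℝ} (hr : 0 < r) (posU : 0 < U r) (posV : 0 < V r)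
    (dU : HasDerivAt U (r ^ (1 - N) * φ r) r)
    (dV : HasDerivAt V (r ^ (1 - N) * ψ r) r)
    (dφ : HasDerivAt φ (-(r ^ (N - 1 + A) * V r ^ p)) r)
    (dψ : HasDerivAt ψ (-(r ^ (N - 1 + B) * U r ^ q)) r) :
    HasDerivAt (En N p q A B a₁ a₂ U V φ ψ)
      (((N + A) / (p + 1) - a₂) * (r ^ (N + A - 1) * V r ^ (p + 1))
        + ((N + B) / (q + 1) - a₁) * (r ^ (N + B - 1) * U r ^ (q + 1))) r := by
  have hr0 : r ≠ 0 := hr.ne'
  have hp1 : p + 1 ≠ 0 := by positivity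
  have hq1 : q + 1 ≠ 0 := by positivity
  -- powers of r
  have e1 : HasDerivAt (fun t : ℝ => t ^ (2 - N)) ((2 - N) * r ^ (2 - N - 1)) r :=
    Real.hasDerivAt_rpow_const (Or.inl hr0)
  have e2 : HasDerivAt (fun t : ℝ => t ^ (N + A)) ((N + A) * r ^ (N + A - 1)) r :=
    Real.hasDerivAt_rpow_const (Or.inl hr0)
  have e3 : HasDerivAt (fun t : ℝ => t ^ (N + B)) ((N + B) * r ^ (N + B - 1)) r :=
    Real.hasDerivAt_rpow_const (Or.inl hr0)
  -- powers of U, V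
  have e4 : HasDerivAt (fun t : ℝ => V t ^ (p + 1))
      ((r ^ (1 - N) * ψ r) * (p + 1) * V r ^ (p + 1 - 1)) r :=
    dV.rpow_const (Or.inl posV.ne')
  have e5 : HasDerivAt (fun t : ℝ => U t ^ (q + 1))
      ((r ^ (1 - N) * φ r) * (q + 1) * U r ^ (q + 1 - 1)) r :=
    dU.rpow_const (Or.inl posU.ne')
  have main := ((((e1.mul (dφ.mul dψ)).add ((e2.mul e4).div_const (p + 1))).add
    ((e3.mul e5).div_const (q + 1))).add ((dU.mul dψ).const_mul a₁)).add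
    ((dV.mul dφ).const_mul a₂)
  have hfun : (En N p q A B a₁ a₂ U V φ ψ) = (fun r => r ^ (2 - N) * (φ r * ψ r)
      + r ^ (N + A) * V r ^ (p + 1) / (p + 1)
      + r ^ (N + B) * U r ^ (q + 1) / (q + 1) + a₁ * (U r * ψ r) + a₂ * (V r * φ r)) := by
    funext t; rfl
  rw [hfun]
  refine HasDerivAt.congr_deriv (f := _) main ?_
  -- normalise all powers of r in terms of x = r^N, y = r^A, z = r^B
  have hN : r ^ (2 - N) = r ^ 2 / r ^ N := by
    rw [Real.rpow_sub hr]; norm_num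
  have hN1 : r ^ (2 - N - 1) = r / r ^ N := by
    rw [show (2 - N - 1 : ℝ) = 1 - N by ring, Real.rpow_sub hr, Real.rpow_one]
  have hN2 : r ^ (1 - N) = r / r ^ N := by
    rw [Real.rpow_sub hr, Real.rpow_one]
  have hA : r ^ (N + A) = r ^ N * r ^ A := Real.rpow_add hr _ _
  have hB : r ^ (N + B) = r ^ N * r ^ B := Real.rpow_add hr _ _
  have hA1 : r ^ (N + A - 1) = r ^ N * r ^ A / r := by
    rw [Real.rpow_sub hr, Real.rpow_add hr, Real.rpow_one]
  have hB1 : r ^ (N + B - 1) = r ^ N * r ^ B / r := by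
    rw [Real.rpow_sub hr, Real.rpow_add hr, Real.rpow_one]
  have hA2 : r ^ (N - 1 + A) = r ^ N * r ^ A / r := by
    rw [show (N - 1 + A : ℝ) = N + A - 1 by ring, hA1]
  have hB2 : r ^ (N - 1 + B) = r ^ N * r ^ B / r := by
    rw [show (N - 1 + B : ℝ) = N + B - 1 by ring, hB1]
  have hV : V r ^ (p + 1) = V r ^ p * V r := by
    rw [Real.rpow_add posV, Real.rpow_one]
  have hU : U r ^ (q + 1) = U r ^ q * U r := by
    rw [Real.rpow_add posU, Real.rpow_one]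
  have hV1 : V r ^ (p + 1 - 1) = V r ^ p := by rw [add_sub_cancel_right]
  have hU1 : U r ^ (q + 1 - 1) = U r ^ q := by rw [add_sub_cancel_right]
  have hx : r ^ N ≠ 0 := (Real.rpow_pos_of_pos hr N).ne'
  have ha₁ : a₁ = N - 2 - a₂ := by linarith
  simp only [Pi.mul_apply]
  rw [hN, hN1, hN2, hA, hB, hA1, hB1, hA2, hB2, hV, hU, hV1, hU1, ha₁]
  field_simp
  ring

end Vale.Agent.P100.Rad
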