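import Mathlib
import Vale.Agent.Lib.P100.Rad.Energy
open Filter Topology Set

namespace Vale.Agent.P100.Rad

lemma abs_En_le {N p q A B a₁ a₂ c₁ c₂ : ℝ} (hN : 2 < N) (hp : 0 < p) (hq : 0 < q)
    (hc₁ : 0 < c₁) (hc₂ : 0 < c₂)
    {U V φ ψ : ℝ → ℝ} {r : ℝ} (hr : 0 < r) (posU : 0 < U r) (posV : 0 < V r)
    (hφ0 : φ r ≤ 0) (hφ1 : -((N - 2) * (r ^ (N - 2) * U r)) ≤ φ r)
    (hψ0 : ψ r ≤ 0) (hψ1 : -((N - 2) * (r ^ (N - 2) * V r)) ≤ ψ r)
    (h1 : c₁ * (r ^ (2 + A) * V r ^ p) ≤ U r)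
    (h2 : c₂ * (r ^ (2 + B) * U r ^ q) ≤ V r) :
    |En N p q A B a₁ a₂ U V φ ψ r|
      ≤ ((N - 2) ^ 2 + 1 / (c₁ * (p + 1)) + 1 / (c₂ * (q + 1)) + (|a₁| + |a₂|) * (N - 2))
        * (r ^ (N - 2) * (U r * V r)) := by
  set x : ℝ := r ^ (N - 2) with hx
  have hx0 : 0 < x := Real.rpow_pos_of_pos hr _
  have hM : 0 < N - 2 := by linarith
  have hp1 : 0 < p + 1 := by linarith
  have hq1 : 0 < q + 1 := by linarith
  have hxinv : r ^ (2 - N) = x⁻¹ := by
    rw [hx, ← Real.rpow_neg hr.le]; congr 1; ring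
  have hA : r ^ (N + A) = x * r ^ (2 + A) := by
    rw [hx, ← Real.rpow_add hr]; congr 1; ring
  have hB : r ^ (N + B) = x * r ^ (2 + B) := by
    rw [hx, ← Real.rpow_add hr]; congr 1; ring
  have hV : V r ^ (p + 1) = V r ^ p * V r := by
    rw [Real.rpow_add posV, Real.rpow_one]
  have hU : U r ^ (q + 1) = U r ^ q * U r := by
    rw [Real.rpow_add posU, Real.rpow_one]
  have aφ : |φ r| ≤ (N - 2) * (x * U r) := by
    rw [abs_of_nonpos hφ0]; linarith
  have aψ : |ψ r| ≤ (N - 2) * (x * V r) := by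
    rw [abs_of_nonpos hψ0]; linarith
  have hUV : 0 < U r * V r := mul_pos posU posV
  -- term 1
  have t1 : |r ^ (2 - N) * (φ r * ψ r)| ≤ (N - 2) ^ 2 * (x * (U r * V r)) := by
    rw [hxinv, abs_mul, abs_mul, abs_of_pos (inv_pos.mpr hx0)]
    have : |φ r| * |ψ r| ≤ ((N - 2) * (x * U r)) * ((N - 2) * (x * V r)) :=
      mul_le_mul aφ aψ (abs_nonneg _) (by positivity)
    calc x⁻¹ * (|φ r| * |ψ r|) ≤ x⁻¹ * (((N - 2) * (x * U r)) * ((N - 2) * (x * V r))) :=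
          mul_le_mul_of_nonneg_left this (inv_pos.mpr hx0).le
      _ = (N - 2) ^ 2 * (x * (U r * V r)) := by
          field_simp
  -- term 2
  have s1 : r ^ (2 + A) * V r ^ p ≤ U r / c₁ := by
    rw [le_div_iff₀ hc₁]; linarith
  have s1' : 0 ≤ r ^ (2 + A) * V r ^ p :=
    mul_nonneg (Real.rpow_pos_of_pos hr _).le (Real.rpow_pos_of_pos posV _).le
  have t2 : |r ^ (N + A) * V r ^ (p + 1) / (p + 1)|
      ≤ 1 / (c₁ * (p + 1)) * (x * (U r * V r)) := by
    have h0 : 0 ≤ r ^ (N + A) * V r ^ (p + 1) / (p + 1) := by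
      have := Real.rpow_pos_of_pos hr (N + A)
      have := Real.rpow_pos_of_pos posV (p + 1)
      positivity
    rw [abs_of_nonneg h0, hA, hV]
    calc x * r ^ (2 + A) * (V r ^ p * V r) / (p + 1)
        = (r ^ (2 + A) * V r ^ p) * (x * V r / (p + 1)) := by ring
      _ ≤ (U r / c₁) * (x * V r / (p + 1)) :=
          mul_le_mul_of_nonneg_right s1 (by positivity)
      _ = 1 / (c₁ * (p + 1)) * (x * (U r * V r)) := by
          field_simp
  -- term 3
  have s2 : r ^ (2 + B) * U r ^ q ≤ V r / c₂ := by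
    rw [le_div_iff₀ hc₂]; linarith
  have t3 : |r ^ (N + B) * U r ^ (q + 1) / (q + 1)|
      ≤ 1 / (c₂ * (q + 1)) * (x * (U r * V r)) := by
    have h0 : 0 ≤ r ^ (N + B) * U r ^ (q + 1) / (q + 1) := by
      have := Real.rpow_pos_of_pos hr (N + B)
      have := Real.rpow_pos_of_pos posU (q + 1)
      positivity
    rw [abs_of_nonneg h0, hB, hU]
    calc x * r ^ (2 + B) * (U r ^ q * U r) / (q + 1)
        = (r ^ (2 + B) * U r ^ q) * (x * U r / (q + 1)) := by ring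
      _ ≤ (V r / c₂) * (x * U r / (q + 1)) :=
          mul_le_mul_of_nonneg_right s2 (by positivity)
      _ = 1 / (c₂ * (q + 1)) * (x * (U r * V r)) := by
          field_simp
  -- terms 4, 5
  have t4 : |a₁ * (U r * ψ r)| ≤ |a₁| * (N - 2) * (x * (U r * V r)) := by
    rw [abs_mul, abs_mul, abs_of_pos posU]
    calc |a₁| * (U r * |ψ r|) ≤ |a₁| * (U r * ((N - 2) * (x * V r))) :=
          mul_le_mul_of_nonneg_left (mul_le_mul_of_nonneg_left aψ posU.le) (abs_nonneg _)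
      _ = |a₁| * (N - 2) * (x * (U r * V r)) := by ring
  have t5 : |a₂ * (V r * φ r)| ≤ |a₂| * (N - 2) * (x * (U r * V r)) := by
    rw [abs_mul, abs_mul, abs_of_pos posV]
    calc |a₂| * (V r * |φ r|) ≤ |a₂| * (V r * ((N - 2) * (x * U r))) :=
          mul_le_mul_of_nonneg_left (mul_le_mul_of_nonneg_left aφ posV.le) (abs_nonneg _)
      _ = |a₂| * (N - 2) * (x * (U r * V r)) := by ring
  have tri : |En N p q A B a₁ a₂ U V φ ψ r| ≤ |r ^ (2 - N) * (φ r * ψ r)|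
      + |r ^ (N + A) * V r ^ (p + 1) / (p + 1)| + |r ^ (N + B) * U r ^ (q + 1) / (q + 1)|
      + |a₁ * (U r * ψ r)| + |a₂ * (V r * φ r)| := by
    unfold En
    refine (abs_add_le _ _).trans (add_le_add_left ?_ _)
    refine (abs_add_le _ _).trans (add_le_add_left ?_ _)
    refine (abs_add_le _ _).trans (add_le_add_left ?_ _)
    exact abs_add_le _ _
  calc |En N p q A B a₁ a₂ U V φ ψ r| ≤ _ := tri
    _ ≤ (N - 2) ^ 2 * (x * (U r * V r)) + 1 / (c₁ * (p + 1)) * (x * (U r * V r))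
        + 1 / (c₂ * (q + 1)) * (x * (U r * V r)) + |a₁| * (N - 2) * (x * (U r * V r))
        + |a₂| * (N - 2) * (x * (U r * V r)) := by
        gcongr
    _ = _ := by ring

end Vale.Agent.P100.Rad
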