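import Mathlib
open Filter Topology Set

namespace Vale.Agent.P100.Rad

/-- derivative of the comparison function `U - c t^(2-N)/(2-N)` -/
lemma key_hasDerivAt {N : ℝ} (hN : 2 < N) {U φ : ℝ → ℝ}
    (dU : ∀ r, 0 < r → HasDerivAt U (r ^ (1 - N) * φ r) r) (c : ℝ) {t : ℝ} (ht : 0 < t) :
    HasDerivAt (fun s => U s - c * (s ^ (2 - N) / (2 - N))) (t ^ (1 - N) * (φ t - c)) t := by
  have h1 : HasDerivAt (fun s : ℝ => s ^ (2 - N)) ((2 - N) * t ^ (2 - N - 1)) t :=
    Real.hasDerivAt_rpow_const (Or.inl ht.ne')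
  have h2 := (dU t ht).sub ((h1.div_const (2 - N)).const_mul c)
  have hne : (2 - N) ≠ 0 := by linarith
  have e : t ^ (1 - N) * φ t - c * ((2 - N) * t ^ (2 - N - 1) / (2 - N))
      = t ^ (1 - N) * (φ t - c) := by
    have e1 : (2 - N - 1) = 1 - N := by ring
    rw [e1, mul_div_cancel_left₀ _ hne]
    ring
  rw [e] at h2
  exact h2

/-- comparison of `U` with the fundamental solution, upper bound -/
lemma key_upper {N : ℝ} (hN : 2 < N) {U φ : ℝ → ℝ}
    (dU : ∀ r, 0 < r → HasDerivAt U (r ^ (1 - N) * φ r) r)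
    (hφ : AntitoneOn φ (Ioi 0)) {r R : ℝ} (hr : 0 < r) (hrR : r ≤ R) :
    U R - U r ≤ φ r * ((r ^ (2 - N) - R ^ (2 - N)) / (N - 2)) := by
  have hpos : ∀ t ∈ Icc r R, 0 < t := fun t ht => lt_of_lt_of_le hr ht.1
  have hanti : AntitoneOn (fun s => U s - φ r * (s ^ (2 - N) / (2 - N))) (Icc r R) := by
    refine antitoneOn_of_deriv_nonpos (convex_Icc r R) ?_ ?_ ?_
    · intro t ht
      exact (key_hasDerivAt hN dU (φ r) (hpos t ht)).continuousAt.continuousWithinAt
    · intro t ht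
      have ht' := interior_subset ht
      exact (key_hasDerivAt hN dU (φ r) (hpos t ht')).differentiableAt.differentiableWithinAt
    · intro t ht
      have ht' := interior_subset ht
      rw [(key_hasDerivAt hN dU (φ r) (hpos t ht')).deriv]
      have h1 : φ t ≤ φ r := hφ (mem_Ioi.mpr hr) (mem_Ioi.mpr (hpos t ht')) ht'.1
      have h2 : 0 ≤ t ^ (1 - N) := (Real.rpow_pos_of_pos (hpos t ht') _).le
      exact mul_nonpos_of_nonneg_of_nonpos h2 (by linarith)
  have h := hanti (left_mem_Icc.mpr hrR) (right_mem_Icc.mpr hrR) hrR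
  simp only at h
  have hne : (2 - N) ≠ 0 := by linarith
  have hne' : (N - 2) ≠ 0 := by linarith
  have e : φ r * ((r ^ (2 - N) - R ^ (2 - N)) / (N - 2))
      = φ r * (R ^ (2 - N) / (2 - N)) - φ r * (r ^ (2 - N) / (2 - N)) := by
    field_simp
    ring
  rw [e]
  linarith

/-- comparison of `U` with the fundamental solution, lower bound -/
lemma key_lower {N : ℝ} (hN : 2 < N) {U φ : ℝ → ℝ}
    (dU : ∀ r, 0 < r → HasDerivAt U (r ^ (1 - N) * φ r) r)
    (hφ : AntitoneOn φ (Ioi 0)) {r R : ℝ} (hr : 0 < r) (hrR : r ≤ R) :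
    φ R * ((r ^ (2 - N) - R ^ (2 - N)) / (N - 2)) ≤ U R - U r := by
  have hpos : ∀ t ∈ Icc r R, 0 < t := fun t ht => lt_of_lt_of_le hr ht.1
  have hR : 0 < R := lt_of_lt_of_le hr hrR
  have hmono : MonotoneOn (fun s => U s - φ R * (s ^ (2 - N) / (2 - N))) (Icc r R) := by
    refine monotoneOn_of_deriv_nonneg (convex_Icc r R) ?_ ?_ ?_
    · intro t ht
      exact (key_hasDerivAt hN dU (φ R) (hpos t ht)).continuousAt.continuousWithinAt
    · intro t ht
      have ht' := interior_subset ht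
      exact (key_hasDerivAt hN dU (φ R) (hpos t ht')).differentiableAt.differentiableWithinAt
    · intro t ht
      have ht' := interior_subset ht
      rw [(key_hasDerivAt hN dU (φ R) (hpos t ht')).deriv]
      have h1 : φ R ≤ φ t := hφ (mem_Ioi.mpr (hpos t ht')) (mem_Ioi.mpr hR) ht'.2
      have h2 : 0 ≤ t ^ (1 - N) := (Real.rpow_pos_of_pos (hpos t ht') _).le
      exact mul_nonneg h2 (by linarith)
  have h := hmono (left_mem_Icc.mpr hrR) (right_mem_Icc.mpr hrR) hrR
  simp only at h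
  have hne : (2 - N) ≠ 0 := by linarith
  have hne' : (N - 2) ≠ 0 := by linarith
  have e : φ R * ((r ^ (2 - N) - R ^ (2 - N)) / (N - 2))
      = φ R * (R ^ (2 - N) / (2 - N)) - φ R * (r ^ (2 - N) / (2 - N)) := by
    field_simp
    ring
  rw [e]
  linarith

/-- the flux is nonpositive (let `r → 0` in `key_lower`) -/
lemma phi_nonpos {N : ℝ} (hN : 2 < N) {U φ : ℝ → ℝ}
    (posU : ∀ r, 0 < r → 0 < U r)
    (dU : ∀ r, 0 < r → HasDerivAt U (r ^ (1 - N) * φ r) r)
    (hφ : AntitoneOn φ (Ioi 0)) : ∀ r, 0 < r → φ r ≤ 0 := by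
  intro R hR
  by_contra hcon
  rw [not_le] at hcon
  have hN2 : 0 < N - 2 := by linarith
  set T : ℝ := R ^ (2 - N) + U R * (N - 2) / φ R with hT
  have hRp : 0 < R ^ (2 - N) := Real.rpow_pos_of_pos hR _
  have hT0 : 0 < T := by
    have := posU R hR
    positivity
  set r0 : ℝ := (T + 1) ^ (1 / (2 - N)) with hr0
  have hr0pos : 0 < r0 := Real.rpow_pos_of_pos (by linarith) _
  have hne : (2 - N) ≠ 0 := by linarith
  have hr0p : r0 ^ (2 - N) = T + 1 := by
    rw [hr0, ← Real.rpow_mul (by linarith), one_div, inv_mul_cancel₀ hne, Real.rpow_one]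
  have hr0R : r0 ≤ R := by
    by_contra h
    rw [not_le] at h
    have h1 : r0 ^ (2 - N) ≤ R ^ (2 - N) :=
      Real.rpow_le_rpow_of_nonpos hR h.le (by linarith)
    rw [hr0p, hT] at h1
    have h2 : 0 ≤ U R * (N - 2) / φ R := by
      have := posU R hR
      positivity
    linarith
  have h := key_lower hN dU hφ hr0pos hr0R
  rw [hr0p] at h
  have h3 : φ R * ((T + 1 - R ^ (2 - N)) / (N - 2)) = U R + φ R / (N - 2) := by
    rw [hT]
    field_simp
    ring
  rw [h3] at h
  have h4 : 0 < φ R / (N - 2) := div_pos hcon hN2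
  have h5 := posU r0 hr0pos
  linarith

/-- lower bound of the flux (let `R → ∞` in `key_upper`) -/
lemma phi_lower {N : ℝ} (hN : 2 < N) {U φ : ℝ → ℝ}
    (posU : ∀ r, 0 < r → 0 < U r)
    (dU : ∀ r, 0 < r → HasDerivAt U (r ^ (1 - N) * φ r) r)
    (hφ : AntitoneOn φ (Ioi 0)) : ∀ r, 0 < r → -((N - 2) * (r ^ (N - 2) * U r)) ≤ φ r := by
  intro r hr
  have hN2 : 0 < N - 2 := by linarith
  have hlim : Tendsto (fun R : ℝ => φ r * ((r ^ (2 - N) - R ^ (2 - N)) / (N - 2))) atTop
      (𝓝 (φ r * ((r ^ (2 - N) - 0) / (N - 2)))) := by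
    have h0 : Tendsto (fun R : ℝ => R ^ (2 - N)) atTop (𝓝 0) := by
      have := tendsto_rpow_neg_atTop hN2
      have e : (fun R : ℝ => R ^ (-(N - 2))) = fun R : ℝ => R ^ (2 - N) := by
        funext R
        congr 1
        ring
      rwa [e] at this
    exact ((tendsto_const_nhds.sub h0).div_const _).const_mul _
  have hev : ∀ᶠ R : ℝ in atTop, -U r ≤ φ r * ((r ^ (2 - N) - R ^ (2 - N)) / (N - 2)) := by
    filter_upwards [eventually_ge_atTop r] with R hR
    have h1 := key_upper hN dU hφ hr hR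
    have h2 := posU R (lt_of_lt_of_le hr hR)
    linarith
  have h := ge_of_tendsto hlim hev
  rw [sub_zero] at h
  have hrp : 0 < r ^ (N - 2) := Real.rpow_pos_of_pos hr _
  have hmul : r ^ (2 - N) * r ^ (N - 2) = 1 := by
    rw [← Real.rpow_add hr]
    have : 2 - N + (N - 2) = 0 := by ring
    rw [this, Real.rpow_zero]
  have h2 : -U r * ((N - 2) * r ^ (N - 2))
      ≤ φ r * (r ^ (2 - N) / (N - 2)) * ((N - 2) * r ^ (N - 2)) :=
    mul_le_mul_of_nonneg_right h (by positivity)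
  have e : φ r * (r ^ (2 - N) / (N - 2)) * ((N - 2) * r ^ (N - 2)) = φ r := by
    have : φ r * (r ^ (2 - N) / (N - 2)) * ((N - 2) * r ^ (N - 2))
        = φ r * (r ^ (2 - N) * r ^ (N - 2)) := by
      field_simp
    rw [this, hmul, mul_one]
  rw [e] at h2
  linarith

end Vale.Agent.P100.Rad
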