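import Mathlib
open Filter Topology Set

namespace Vale.Agent.P100.Rad

/-- pointwise comparison `U ≥ c r^(2+A) V^p` -/
lemma pointwise {N p A : ℝ} (hN : 2 < N) (hp : 0 < p) (hNA : 0 ≤ N - 1 + A) {U V φ : ℝ → ℝ}
    (posV : ∀ r, 0 < r → 0 < V r)
    (hV : AntitoneOn V (Ioi 0))
    (dφ : ∀ r, 0 < r → HasDerivAt φ (-(r ^ (N - 1 + A) * V r ^ p)) r)
    (hφ0 : ∀ r, 0 < r → φ r ≤ 0)
    (hφ1 : ∀ r, 0 < r → -((N - 2) * (r ^ (N - 2) * U r)) ≤ φ r) :
    ∀ r, 0 < r → (1 / 2) ^ (N + A) / (N - 2) * (r ^ (2 + A) * V r ^ p) ≤ U r := by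
  intro r hr
  have hN2 : 0 < N - 2 := by linarith
  have hr2 : 0 < r / 2 := by linarith
  have hle : r / 2 ≤ r := by linarith
  have hpos : ∀ t ∈ Icc (r / 2) r, 0 < t := fun t ht => lt_of_lt_of_le hr2 ht.1
  have hmv := Convex.image_sub_le_mul_sub_of_deriv_le (convex_Icc (r / 2) r) (f := φ)
    (C := -((r / 2) ^ (N - 1 + A) * V r ^ p))
    (fun t ht => (dφ t (hpos t ht)).continuousAt.continuousWithinAt)
    (fun t ht => (dφ t (hpos t (interior_subset ht))).differentiableAt.differentiableWithinAt)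
    (fun t ht => by
      have ht' := interior_subset ht
      have htpos := hpos t ht'
      rw [(dφ t htpos).deriv]
      have h1 : (r / 2) ^ (N - 1 + A) ≤ t ^ (N - 1 + A) :=
        Real.rpow_le_rpow hr2.le ht'.1 hNA
      have h2 : V r ≤ V t := hV (mem_Ioi.mpr htpos) (mem_Ioi.mpr hr) ht'.2
      have h3 : V r ^ p ≤ V t ^ p := Real.rpow_le_rpow (posV r hr).le h2 hp.le
      have h4 : 0 ≤ V r ^ p := (Real.rpow_pos_of_pos (posV r hr) _).le
      have h5 : 0 ≤ (r / 2) ^ (N - 1 + A) := (Real.rpow_pos_of_pos hr2 _).le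
      have h6 : (r / 2) ^ (N - 1 + A) * V r ^ p ≤ t ^ (N - 1 + A) * V t ^ p :=
        mul_le_mul h1 h3 h4 (h5.trans h1)
      linarith)
    (r / 2) (left_mem_Icc.mpr hle) r (right_mem_Icc.mpr hle) hle
  have h0 := hφ0 (r / 2) hr2
  have h1 := hφ1 r hr
  have e1 : (r / 2) ^ (N - 1 + A) * (r / 2) = (r / 2) ^ (N + A) := by
    have : (r / 2) ^ (N + A) = (r / 2) ^ (N - 1 + A + 1) := by congr 1; ring
    rw [this, Real.rpow_add_one hr2.ne']
  have e2 : (r / 2) ^ (N + A) = (1 / 2) ^ (N + A) * r ^ (N + A) := by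
    rw [← Real.mul_rpow (by norm_num) hr.le]
    congr 1
    ring
  have e3 : r ^ (N + A) = r ^ (N - 2) * r ^ (2 + A) := by
    rw [← Real.rpow_add hr]
    congr 1
    ring
  have hsub : r - r / 2 = r / 2 := by ring
  rw [hsub] at hmv
  have hVp : 0 < V r ^ p := Real.rpow_pos_of_pos (posV r hr) _
  have hrN : 0 < r ^ (N - 2) := Real.rpow_pos_of_pos hr _
  -- main inequality
  have h2 : (1 / 2) ^ (N + A) * (r ^ (N - 2) * r ^ (2 + A)) * V r ^ p
      ≤ (N - 2) * (r ^ (N - 2) * U r) := by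
    have h3 : -((r / 2) ^ (N - 1 + A) * V r ^ p) * (r / 2)
        = -((1 / 2) ^ (N + A) * (r ^ (N - 2) * r ^ (2 + A)) * V r ^ p) := by
      rw [← e3, ← e2, ← e1]
      ring
    rw [h3] at hmv
    linarith
  rw [div_mul_eq_mul_div, div_le_iff₀ hN2]
  have h4 : (1 / 2) ^ (N + A) * (r ^ (2 + A) * V r ^ p) * r ^ (N - 2)
      ≤ U r * (N - 2) * r ^ (N - 2) := by
    calc (1 / 2) ^ (N + A) * (r ^ (2 + A) * V r ^ p) * r ^ (N - 2)
        = (1 / 2) ^ (N + A) * (r ^ (N - 2) * r ^ (2 + A)) * V r ^ p := by ring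
      _ ≤ (N - 2) * (r ^ (N - 2) * U r) := h2
      _ = U r * (N - 2) * r ^ (N - 2) := by ring
  exact le_of_mul_le_mul_right h4 hrN

end Vale.Agent.P100.Rad
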