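import Mathlib
open Filter Topology Set

namespace Vale.Agent.P100.Rad

/-- chaining the two pointwise inequalities -/
lemma power_bound {p q a b c₁ c₂ : ℝ} (hp : 0 < p) (hc₁ : 0 < c₁) (hc₂ : 0 < c₂)
    {U V : ℝ → ℝ} (posU : ∀ r, 0 < r → 0 < U r) (posV : ∀ r, 0 < r → 0 < V r)
    (h1 : ∀ r, 0 < r → c₁ * (r ^ a * V r ^ p) ≤ U r)
    (h2 : ∀ r, 0 < r → c₂ * (r ^ b * U r ^ q) ≤ V r) :
    ∀ r, 0 < r → U r ^ (p * q - 1) ≤ (c₁ * c₂ ^ p)⁻¹ * r ^ (-(a + p * b)) := by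
  intro r hr
  have hu := posU r hr
  have hra : 0 < r ^ a := Real.rpow_pos_of_pos hr _
  have hrb : 0 < r ^ b := Real.rpow_pos_of_pos hr _
  have huq : 0 < U r ^ q := Real.rpow_pos_of_pos hu _
  have hc2p : 0 < c₂ ^ p := Real.rpow_pos_of_pos hc₂ _
  have h3 : (c₂ * (r ^ b * U r ^ q)) ^ p ≤ V r ^ p :=
    Real.rpow_le_rpow (by positivity) (h2 r hr) hp.le
  have e1 : (c₂ * (r ^ b * U r ^ q)) ^ p = c₂ ^ p * (r ^ (p * b) * U r ^ (p * q)) := by
    rw [Real.mul_rpow hc₂.le (by positivity), Real.mul_rpow hrb.le huq.le,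
      ← Real.rpow_mul hr.le, ← Real.rpow_mul hu.le, mul_comm b p, mul_comm q p]
  rw [e1] at h3
  have h4 : c₁ * (r ^ a * (c₂ ^ p * (r ^ (p * b) * U r ^ (p * q)))) ≤ U r :=
    le_trans (by gcongr) (h1 r hr)
  have e2 : r ^ a * r ^ (p * b) = r ^ (a + p * b) := (Real.rpow_add hr _ _).symm
  have hK : 0 < c₁ * c₂ ^ p := by positivity
  have hrab : 0 < r ^ (a + p * b) := Real.rpow_pos_of_pos hr _
  have h5 : (c₁ * c₂ ^ p) * r ^ (a + p * b) * U r ^ (p * q) ≤ U r := by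
    rw [← e2]
    calc c₁ * c₂ ^ p * (r ^ a * r ^ (p * b)) * U r ^ (p * q)
        = c₁ * (r ^ a * (c₂ ^ p * (r ^ (p * b) * U r ^ (p * q)))) := by ring
      _ ≤ U r := h4
  rw [Real.rpow_sub_one hu.ne', Real.rpow_neg hr.le, ← mul_inv, div_le_iff₀ hu,
    ← div_eq_inv_mul, le_div_iff₀ (by positivity)]
  calc U r ^ (p * q) * (c₁ * c₂ ^ p * r ^ (a + p * b))
      = (c₁ * c₂ ^ p) * r ^ (a + p * b) * U r ^ (p * q) := by ring
    _ ≤ U r := h5

/-- `pq ≤ 1` is impossible -/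
lemma false_of_pq_le_one {e g C : ℝ} (he : e ≤ 0) (hg : 0 < g)
    {U : ℝ → ℝ} (posU : ∀ r, 0 < r → 0 < U r) (hU : AntitoneOn U (Ioi 0))
    (h : ∀ r, 0 < r → U r ^ e ≤ C * r ^ (-g)) : False := by
  have hlim : Tendsto (fun r : ℝ => C * r ^ (-g)) atTop (𝓝 (C * 0)) :=
    (tendsto_rpow_neg_atTop hg).const_mul C
  have hev : ∀ᶠ r : ℝ in atTop, U 1 ^ e ≤ C * r ^ (-g) := by
    filter_upwards [eventually_ge_atTop 1] with r hr
    have hr0 : 0 < r := by linarith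
    have h1 : U r ≤ U 1 := hU (mem_Ioi.mpr one_pos) (mem_Ioi.mpr hr0) hr
    have h2 : U 1 ^ e ≤ U r ^ e := Real.rpow_le_rpow_of_nonpos (posU r hr0) h1 he
    exact h2.trans (h r hr0)
  have h3 := ge_of_tendsto hlim hev
  rw [mul_zero] at h3
  have h4 : 0 < U 1 ^ e := Real.rpow_pos_of_pos (posU 1 one_pos) _
  linarith

/-- a lower bound `U ≥ c r^(-k)` is incompatible with `U^e ≤ C r^(-g)` when `k e < g` -/
lemma false_of_lower {e g k c C : ℝ} (he : 0 < e) (hc : 0 < c) (hk : k * e < g)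
    {U : ℝ → ℝ}
    (hlow : ∀ r, 1 ≤ r → c * r ^ (-k) ≤ U r)
    (h : ∀ r, 0 < r → U r ^ e ≤ C * r ^ (-g)) : False := by
  have hd : 0 < g - k * e := by linarith
  have hlim : Tendsto (fun r : ℝ => C * r ^ (-(g - k * e))) atTop (𝓝 (C * 0)) :=
    (tendsto_rpow_neg_atTop hd).const_mul C
  have hev : ∀ᶠ r : ℝ in atTop, c ^ e ≤ C * r ^ (-(g - k * e)) := by
    filter_upwards [eventually_ge_atTop 1] with r hr
    have hr0 : 0 < r := by linarith
    have hrk : 0 < r ^ (-k) := Real.rpow_pos_of_pos hr0 _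
    have h1 : (c * r ^ (-k)) ^ e ≤ U r ^ e :=
      Real.rpow_le_rpow (by positivity) (hlow r hr) he.le
    have e1 : (c * r ^ (-k)) ^ e = c ^ e * r ^ (-(k * e)) := by
      rw [Real.mul_rpow hc.le hrk.le, ← Real.rpow_mul hr0.le]
      congr 2
      ring
    rw [e1] at h1
    have h2 := h1.trans (h r hr0)
    have hrke : 0 < r ^ (k * e) := Real.rpow_pos_of_pos hr0 _
    have e2 : r ^ (-(g - k * e)) = r ^ (-g) * r ^ (k * e) := by
      rw [← Real.rpow_add hr0]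
      congr 1
      ring
    have e3 : r ^ (-(k * e)) * r ^ (k * e) = 1 := by
      rw [← Real.rpow_add hr0]
      simp
    calc c ^ e = c ^ e * r ^ (-(k * e)) * r ^ (k * e) := by rw [mul_assoc, e3, mul_one]
      _ ≤ C * r ^ (-g) * r ^ (k * e) := by gcongr
      _ = C * r ^ (-(g - k * e)) := by rw [e2]; ring
  have h3 := ge_of_tendsto hlim hev
  rw [mul_zero] at h3
  have h4 : 0 < c ^ e := Real.rpow_pos_of_pos hc _
  linarith

/-- decay of the product -/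
lemma prod_tendsto {e g₁ g₂ k C₁ C₂ : ℝ} (he : 0 < e) (hk : k * e < g₁ + g₂)
    {U V : ℝ → ℝ} (posU : ∀ r, 0 < r → 0 < U r) (posV : ∀ r, 0 < r → 0 < V r)
    (h1 : ∀ r, 0 < r → U r ^ e ≤ C₁ * r ^ (-g₁))
    (h2 : ∀ r, 0 < r → V r ^ e ≤ C₂ * r ^ (-g₂)) :
    Tendsto (fun r => r ^ k * (U r * V r)) atTop (𝓝 0) := by
  have hC₁ : 0 < C₁ := by
    have h3 := h1 1 one_pos
    rw [Real.one_rpow, mul_one] at h3
    exact lt_of_lt_of_le (Real.rpow_pos_of_pos (posU 1 one_pos) _) h3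
  have hC₂ : 0 < C₂ := by
    have h3 := h2 1 one_pos
    rw [Real.one_rpow, mul_one] at h3
    exact lt_of_lt_of_le (Real.rpow_pos_of_pos (posV 1 one_pos) _) h3
  set δ : ℝ := (g₁ + g₂ - k * e) / e with hδ
  have hδpos : 0 < δ := div_pos (by linarith) he
  have hlim : Tendsto (fun r : ℝ => (C₁ * C₂) ^ (1 / e) * r ^ (-δ)) atTop
      (𝓝 ((C₁ * C₂) ^ (1 / e) * 0)) :=
    (tendsto_rpow_neg_atTop hδpos).const_mul _
  rw [mul_zero] at hlim
  refine squeeze_zero' ?_ ?_ hlim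
  · filter_upwards [eventually_gt_atTop 0] with r hr
    have := posU r hr
    have := posV r hr
    have := Real.rpow_pos_of_pos hr k
    positivity
  · filter_upwards [eventually_gt_atTop 0] with r hr
    have hu := posU r hr
    have hv := posV r hr
    have hrk := Real.rpow_pos_of_pos hr k
    have hx : 0 < r ^ k * (U r * V r) := by positivity
    have e1 : (r ^ k * (U r * V r)) ^ e = r ^ (k * e) * (U r ^ e * V r ^ e) := by
      rw [Real.mul_rpow hrk.le (by positivity), Real.mul_rpow hu.le hv.le, ← Real.rpow_mul hr.le]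
    have hrke := Real.rpow_pos_of_pos hr (k * e)
    have hue := Real.rpow_pos_of_pos hu e
    have hve := Real.rpow_pos_of_pos hv e
    have h3 : (r ^ k * (U r * V r)) ^ e ≤ (C₁ * C₂) * r ^ (-(δ * e)) := by
      rw [e1]
      have e2 : r ^ (-(δ * e)) = r ^ (k * e) * (r ^ (-g₁) * r ^ (-g₂)) := by
        rw [← Real.rpow_add hr, ← Real.rpow_add hr]
        congr 1
        rw [hδ, div_mul_cancel₀ _ he.ne']
        ring
      rw [e2]
      calc r ^ (k * e) * (U r ^ e * V r ^ e)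
          ≤ r ^ (k * e) * ((C₁ * r ^ (-g₁)) * (C₂ * r ^ (-g₂))) := by
            have := h1 r hr
            have := h2 r hr
            gcongr
        _ = C₁ * C₂ * (r ^ (k * e) * (r ^ (-g₁) * r ^ (-g₂))) := by ring
    have h4 : ((r ^ k * (U r * V r)) ^ e) ^ (1 / e) ≤ ((C₁ * C₂) * r ^ (-(δ * e))) ^ (1 / e) :=
      Real.rpow_le_rpow (by positivity) h3 (by positivity)
    have e3 : ((r ^ k * (U r * V r)) ^ e) ^ (1 / e) = r ^ k * (U r * V r) := by
      rw [← Real.rpow_mul hx.le, mul_one_div, div_self he.ne', Real.rpow_one]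
    have e4 : ((C₁ * C₂) * r ^ (-(δ * e))) ^ (1 / e) = (C₁ * C₂) ^ (1 / e) * r ^ (-δ) := by
      rw [Real.mul_rpow (by positivity) (Real.rpow_pos_of_pos hr _).le, ← Real.rpow_mul hr.le]
      congr 2
      field_simp
    rw [e3, e4] at h4
    exact h4

end Vale.Agent.P100.Rad
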