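import Mathlib
import Vale.Agent.Lib.P100.Rad.Key
import Vale.Agent.Lib.P100.Rad.Pointwise
import Vale.Agent.Lib.P100.Rad.Power
import Vale.Agent.Lib.P100.Rad.Energy
import Vale.Agent.Lib.P100.Rad.EnergyBound
open Filter Topology Set

namespace Vale.Agent.P100.Rad

lemma antitoneOn_of_hasDerivAt_nonpos {f f' : ℝ → ℝ}
    (hf : ∀ r, 0 < r → HasDerivAt f (f' r) r) (hf' : ∀ r, 0 < r → f' r ≤ 0) :
    AntitoneOn f (Ioi 0) := by
  apply antitoneOn_of_deriv_nonpos (convex_Ioi 0)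
  · intro r hr
    exact (hf r hr).continuousAt.continuousWithinAt
  · intro r hr
    rw [interior_Ioi] at hr
    exact (hf r hr).differentiableAt.differentiableWithinAt
  · intro r hr
    rw [interior_Ioi] at hr
    rw [(hf r hr).deriv]
    exact hf' r hr

lemma strictMonoOn_of_hasDerivAt_pos {f f' : ℝ → ℝ}
    (hf : ∀ r, 0 < r → HasDerivAt f (f' r) r) (hf' : ∀ r, 0 < r → 0 < f' r) :
    StrictMonoOn f (Ioi 0) := by
  apply strictMonoOn_of_deriv_pos (convex_Ioi 0)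
  · intro r hr
    exact (hf r hr).continuousAt.continuousWithinAt
  · intro r hr
    rw [interior_Ioi] at hr
    rw [(hf r hr).deriv]
    exact hf' r hr

/-- The radial Henon-Lane-Emden system has no positive solution on `(0,∞)` that is bounded
near `0`, in the whole subcritical range. -/
theorem radial_core {N p q A B : ℝ} (hN : 3 ≤ N) (hp : 0 < p) (hq : 0 < q)
    (hA : -2 < A) (hB : -2 < B)
    (hsub : N - 2 < (N + A) / (p + 1) + (N + B) / (q + 1))
    {U V φ ψ : ℝ → ℝ}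
    (posU : ∀ r, 0 < r → 0 < U r) (posV : ∀ r, 0 < r → 0 < V r)
    (dU : ∀ r, 0 < r → HasDerivAt U (r ^ (1 - N) * φ r) r)
    (dV : ∀ r, 0 < r → HasDerivAt V (r ^ (1 - N) * ψ r) r)
    (dφ : ∀ r, 0 < r → HasDerivAt φ (-(r ^ (N - 1 + A) * V r ^ p)) r)
    (dψ : ∀ r, 0 < r → HasDerivAt ψ (-(r ^ (N - 1 + B) * U r ^ q)) r)
    {M : ℝ} (bU : ∀ r, 0 < r → r ≤ 1 → U r ≤ M) (bV : ∀ r, 0 < r → r ≤ 1 → V r ≤ M) :
    False := by
  have hN2 : 2 < N := by linarith
  have hφa : AntitoneOn φ (Ioi 0) := antitoneOn_of_hasDerivAt_nonpos dφ (fun r hr => by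
    have := mul_pos (Real.rpow_pos_of_pos hr (N - 1 + A)) (Real.rpow_pos_of_pos (posV r hr) p)
    linarith)
  have hψa : AntitoneOn ψ (Ioi 0) := antitoneOn_of_hasDerivAt_nonpos dψ (fun r hr => by
    have := mul_pos (Real.rpow_pos_of_pos hr (N - 1 + B)) (Real.rpow_pos_of_pos (posU r hr) q)
    linarith)
  have hφ0 := phi_nonpos hN2 posU dU hφa
  have hψ0 := phi_nonpos hN2 posV dV hψa
  have hφ1 := phi_lower hN2 posU dU hφa
  have hψ1 := phi_lower hN2 posV dV hψa
  have hUa : AntitoneOn U (Ioi 0) := antitoneOn_of_hasDerivAt_nonpos dU (fun r hr =>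
    mul_nonpos_of_nonneg_of_nonpos (Real.rpow_pos_of_pos hr _).le (hφ0 r hr))
  have hVa : AntitoneOn V (Ioi 0) := antitoneOn_of_hasDerivAt_nonpos dV (fun r hr =>
    mul_nonpos_of_nonneg_of_nonpos (Real.rpow_pos_of_pos hr _).le (hψ0 r hr))
  set c₁ : ℝ := (1 / 2) ^ (N + A) / (N - 2) with hc₁def
  set c₂ : ℝ := (1 / 2) ^ (N + B) / (N - 2) with hc₂def
  have hc₁ : 0 < c₁ := div_pos (Real.rpow_pos_of_pos (by norm_num) _) (by linarith)
  have hc₂ : 0 < c₂ := div_pos (Real.rpow_pos_of_pos (by norm_num) _) (by linarith)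
  have h1 : ∀ r, 0 < r → c₁ * (r ^ (2 + A) * V r ^ p) ≤ U r :=
    pointwise hN2 hp (by linarith) posV hVa dφ hφ0 hφ1
  have h2 : ∀ r, 0 < r → c₂ * (r ^ (2 + B) * U r ^ q) ≤ V r :=
    pointwise hN2 hq (by linarith) posU hUa dψ hψ0 hψ1
  have hPU := power_bound hp hc₁ hc₂ posU posV h1 h2
  have hPV := power_bound hq hc₂ hc₁ posV posU h2 h1
  by_cases hpq : p * q ≤ 1
  · refine false_of_pq_le_one (e := p * q - 1) (g := (2 + A) + p * (2 + B)) (by linarith) ?_
      posU hUa hPU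
    have : 0 < p * (2 + B) := mul_pos hp (by linarith)
    linarith
  push Not at hpq
  -- decay of the product
  have hkey : (N - 2) * (p * q - 1) < ((2 + A) + p * (2 + B)) + ((2 + B) + q * (2 + A)) := by
    have hp1 : 0 < p + 1 := by linarith
    have hq1 : 0 < q + 1 := by linarith
    have h3 : (N - 2) * ((p + 1) * (q + 1)) < (N + A) * (q + 1) + (N + B) * (p + 1) := by
      have h4 : (N + A) / (p + 1) + (N + B) / (q + 1)
          = ((N + A) * (q + 1) + (N + B) * (p + 1)) / ((p + 1) * (q + 1)) := by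
        field_simp
      rw [h4, lt_div_iff₀ (mul_pos hp1 hq1)] at hsub
      exact hsub
    nlinarith
  have hPV' : ∀ r, 0 < r → V r ^ (p * q - 1) ≤ (c₂ * c₁ ^ q)⁻¹ * r ^ (-((2 + B) + q * (2 + A))) := by
    intro r hr
    have := hPV r hr
    rwa [mul_comm q p] at this
  have hprod : Tendsto (fun r => r ^ (N - 2) * (U r * V r)) atTop (𝓝 0) :=
    prod_tendsto (by linarith) hkey posU posV hPU hPV'
  -- the energy
  set δ : ℝ := ((N + A) / (p + 1) + (N + B) / (q + 1) - (N - 2)) / 2 with hδ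
  have hδpos : 0 < δ := by rw [hδ]; linarith
  set a₂ : ℝ := (N + A) / (p + 1) - δ with ha₂
  set a₁ : ℝ := (N + B) / (q + 1) - δ with ha₁
  have ha : a₁ + a₂ = N - 2 := by rw [ha₁, ha₂, hδ]; ring
  set F := En N p q A B a₁ a₂ U V φ ψ with hF
  have hFd : ∀ r, 0 < r → HasDerivAt F
      (((N + A) / (p + 1) - a₂) * (r ^ (N + A - 1) * V r ^ (p + 1))
        + ((N + B) / (q + 1) - a₁) * (r ^ (N + B - 1) * U r ^ (q + 1))) r := fun r hr =>
    hasDerivAt_En hp hq ha hr (posU r hr) (posV r hr) (dU r hr) (dV r hr) (dφ r hr) (dψ r hr)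
  have hFmono : StrictMonoOn F (Ioi 0) := strictMonoOn_of_hasDerivAt_pos hFd (fun r hr => by
    have e1 : (N + A) / (p + 1) - a₂ = δ := by rw [ha₂]; ring
    have e2 : (N + B) / (q + 1) - a₁ = δ := by rw [ha₁]; ring
    rw [e1, e2]
    have t1 := mul_pos (Real.rpow_pos_of_pos hr (N + A - 1))
      (Real.rpow_pos_of_pos (posV r hr) (p + 1))
    have t2 := mul_pos (Real.rpow_pos_of_pos hr (N + B - 1))
      (Real.rpow_pos_of_pos (posU r hr) (q + 1))
    positivity)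
  set K : ℝ := (N - 2) ^ 2 + 1 / (c₁ * (p + 1)) + 1 / (c₂ * (q + 1)) + (|a₁| + |a₂|) * (N - 2)
    with hK
  have hFb : ∀ r, 0 < r → |F r| ≤ K * (r ^ (N - 2) * (U r * V r)) := fun r hr =>
    abs_En_le hN2 hp hq hc₁ hc₂ hr (posU r hr) (posV r hr) (hφ0 r hr) (hφ1 r hr) (hψ0 r hr)
      (hψ1 r hr) (h1 r hr) (h2 r hr)
  have hK0 : 0 ≤ K := by
    have := hFb 1 one_pos
    have h5 : 0 < (1 : ℝ) ^ (N - 2) * (U 1 * V 1) := by
      have := mul_pos (posU 1 one_pos) (posV 1 one_pos)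
      simpa using this
    by_contra hneg
    push Not at hneg
    have : K * ((1 : ℝ) ^ (N - 2) * (U 1 * V 1)) < 0 := mul_neg_of_neg_of_pos hneg h5
    linarith [abs_nonneg (F 1)]
  -- limit at infinity
  have hFinf : Tendsto F atTop (𝓝 0) := by
    apply squeeze_zero_norm' (a := fun r => K * (r ^ (N - 2) * (U r * V r)))
    · filter_upwards [eventually_gt_atTop 0] with r hr
      simpa using hFb r hr
    · simpa using hprod.const_mul K
  -- limit at zero
  have hM : 0 < M := lt_of_lt_of_le (posU 1 one_pos) (bU 1 one_pos le_rfl)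
  have hFzero : Tendsto F (𝓝[>] 0) (𝓝 0) := by
    apply squeeze_zero_norm' (a := fun r => K * (r ^ (N - 2) * (M * M)))
    · filter_upwards [Ioc_mem_nhdsGT (zero_lt_one' ℝ)] with r hr
      have h6 : U r * V r ≤ M * M :=
        mul_le_mul (bU r hr.1 hr.2) (bV r hr.1 hr.2) (posV r hr.1).le hM.le
      have h7 : 0 ≤ r ^ (N - 2) := (Real.rpow_pos_of_pos hr.1 _).le
      calc ‖F r‖ = |F r| := Real.norm_eq_abs _
        _ ≤ K * (r ^ (N - 2) * (U r * V r)) := hFb r hr.1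
        _ ≤ K * (r ^ (N - 2) * (M * M)) := by gcongr
    · have h8 : Tendsto (fun r : ℝ => r ^ (N - 2)) (𝓝[>] 0) (𝓝 0) := by
        have : Tendsto (fun r : ℝ => r ^ (N - 2)) (𝓝 0) (𝓝 ((0 : ℝ) ^ (N - 2))) :=
          (Real.continuousAt_rpow_const 0 (N - 2) (Or.inr (by linarith))).tendsto
        rw [Real.zero_rpow (by linarith)] at this
        exact this.mono_left nhdsWithin_le_nhds
      simpa using (h8.mul_const (M * M)).const_mul K
  have hF1 : 0 ≤ F 1 := by
    apply le_of_tendsto hFzero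
    filter_upwards [Ioo_mem_nhdsGT (zero_lt_one' ℝ)] with r hr
    exact (hFmono hr.1 (show (1 : ℝ) ∈ Ioi 0 by simp) hr.2).le
  have hF2 : F 2 ≤ 0 := by
    apply ge_of_tendsto hFinf
    filter_upwards [eventually_gt_atTop 2] with r hr
    exact (hFmono (show (2 : ℝ) ∈ Ioi 0 by simp) (show r ∈ Ioi 0 by simp; linarith) hr).le
  have hF12 : F 1 < F 2 :=
    hFmono (show (1 : ℝ) ∈ Ioi 0 by simp) (show (2 : ℝ) ∈ Ioi 0 by simp) (by norm_num)
  linarith

end Vale.Agent.P100.Rad
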